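import Vale.Agent.Lib.P154B.Final
import Vale.Agent.Lib.P154Q.Limit

/-!
A computable lower bound for the Mellin functional with exponents `(2,2,1)/5` on rational vectors.
-/

noncomputable section

open Finset

namespace Vale.Agent.Lib.P154C

open Vale.Agent.Lib.P154B Vale.Agent.Lib.P154 Vale.Agent.Lib.P154.Mellin Vale.Agent.Lib.P154Q

/-- The test of the inequality for a root. -/
def rootLe (Y Z r : ℕ) : Bool := Nat.ble (r ^ 5 * Z) Y

/-- A search for a fifth root, bit by bit. -/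
def rootB (Y Z : ℕ) : ℕ → ℕ → ℕ
  | 0, r => r
  | k + 1, r => bif rootLe Y Z (r + 2 ^ k) then rootB Y Z k (r + 2 ^ k) else rootB Y Z k r

theorem rootB_le (Y Z : ℕ) (k r : ℕ) (h : r ^ 5 * Z ≤ Y) : (rootB Y Z k r) ^ 5 * Z ≤ Y := by
  induction k generalizing r with
  | zero => exact h
  | succ k ih =>
    unfold rootB
    cases hc : rootLe Y Z (r + 2 ^ k) with
    | true => exact ih _ (Nat.le_of_ble_eq_true hc)
    | false => exact ih _ h

/-- The root with `40` binary digits of `a^2 b^2 c` over `D^5`. -/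
def mroot (a b c D : ℕ) : ℕ := rootB (2 ^ 200 * (a ^ 2 * b ^ 2 * c)) (D ^ 5) 60 0

theorem mroot_le (a b c D : ℕ) : (mroot a b c D) ^ 5 * D ^ 5 ≤ 2 ^ 200 * (a ^ 2 * b ^ 2 * c) :=
  rootB_le _ _ _ _ (by simp)

/-- The bound of the test. -/
def aA (X : Trip) (D : ℕ) : ℕ := (mroot X.1 X.2.1 X.2.2 D + mroot X.2.1 X.2.2 X.1 D + mroot X.2.2 X.1 X.2.1 D) / 3

theorem mono_lower {a b c D : ℕ} (hD : 0 < D) :
    ((mroot a b c D : ℕ) : ℝ) / 2 ^ 40
      ≤ ((a : ℝ) / D) ^ ((2 : ℝ) / 5) * ((b : ℝ) / D) ^ ((2 : ℝ) / 5) * ((c : ℝ) / D) ^ ((1 : ℝ) / 5) := by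
  have h := mroot_le a b c D
  have hR : ((mroot a b c D : ℕ) : ℝ) ^ 5 * (D : ℝ) ^ 5 ≤ 2 ^ 200 * ((a : ℝ) ^ 2 * (b : ℝ) ^ 2 * (c : ℝ)) := by
    exact_mod_cast h
  have hDR : (0 : ℝ) < D := by exact_mod_cast hD
  set x := (a : ℝ) / D with hx
  set y := (b : ℝ) / D with hy
  set z := (c : ℝ) / D with hz
  have hx0 : 0 ≤ x := by positivity
  have hy0 : 0 ≤ y := by positivity
  have hz0 : 0 ≤ z := by positivity
  set t := ((mroot a b c D : ℕ) : ℝ) / 2 ^ 40 with ht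
  have ht0 : 0 ≤ t := by positivity
  have h5 : t ^ 5 ≤ x ^ 2 * y ^ 2 * z := by
    have e1 : t ^ 5 = ((mroot a b c D : ℕ) : ℝ) ^ 5 / 2 ^ 200 := by
      rw [ht, div_pow]
      norm_num
    have e2 : x ^ 2 * y ^ 2 * z = ((a : ℝ) ^ 2 * (b : ℝ) ^ 2 * (c : ℝ)) / (D : ℝ) ^ 5 := by
      rw [hx, hy, hz]
      field_simp
    rw [e1, e2, div_le_div_iff₀ (by positivity) (by positivity)]
    linarith
  have e3 : x ^ ((2 : ℝ) / 5) * y ^ ((2 : ℝ) / 5) * z ^ ((1 : ℝ) / 5) = (x ^ 2 * y ^ 2 * z) ^ ((1 : ℝ) / 5) := by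
    rw [Real.mul_rpow (by positivity) hz0, Real.mul_rpow (by positivity) (by positivity)]
    rw [← Real.rpow_natCast x 2, ← Real.rpow_natCast y 2, ← Real.rpow_mul hx0, ← Real.rpow_mul hy0]
    norm_num
  rw [e3]
  have e4 : t = (t ^ 5) ^ ((1 : ℝ) / 5) := by
    rw [← Real.rpow_natCast t 5, ← Real.rpow_mul ht0]
    norm_num
  rw [e4]
  exact Real.rpow_le_rpow (by positivity) h5 (by norm_num)

theorem fhatA_bd : TestBd (fun x => - fhat cA x) 40 aA := by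
  intro X D hD
  have hDR : (0 : ℝ) < D := by exact_mod_cast hD
  have h1 := mono_lower (a := X.1) (b := X.2.1) (c := X.2.2) hD
  have h2 := mono_lower (a := X.2.1) (b := X.2.2) (c := X.1) hD
  have h3 := mono_lower (a := X.2.2) (b := X.1) (c := X.2.1) hD
  have hfl := Nat.div_mul_le_self (mroot X.1 X.2.1 X.2.2 D + mroot X.2.1 X.2.2 X.1 D + mroot X.2.2 X.1 X.2.1 D) 3
  have hfl' : ((aA X D : ℕ) : ℝ) * 3 ≤ ((mroot X.1 X.2.1 X.2.2 D : ℕ) : ℝ) + ((mroot X.2.1 X.2.2 X.1 D : ℕ) : ℝ)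
      + ((mroot X.2.2 X.1 X.2.1 D : ℕ) : ℝ) := by
    exact_mod_cast hfl
  unfold fhat
  simp only [vecOf, cA, Matrix.cons_val_zero, Matrix.cons_val_one, Matrix.cons_val]
  rw [neg_div, neg_le_neg_iff]
  set r1 := ((mroot X.1 X.2.1 X.2.2 D : ℕ) : ℝ)
  set r2 := ((mroot X.2.1 X.2.2 X.1 D : ℕ) : ℝ)
  set r3 := ((mroot X.2.2 X.1 X.2.1 D : ℕ) : ℝ)
  have h4 : ((aA X D : ℕ) : ℝ) / 2 ^ 40 ≤ (1 / 3) * (r1 / 2 ^ 40 + r2 / 2 ^ 40 + r3 / 2 ^ 40) := by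
    have e : (1 / 3) * (r1 / 2 ^ 40 + r2 / 2 ^ 40 + r3 / 2 ^ 40) = ((r1 + r2 + r3) / 3) / 2 ^ 40 := by ring
    rw [e]
    refine div_le_div_of_nonneg_right ?_ (by positivity)
    linarith
  refine h4.trans ?_
  have e2 : ∀ p q u v w t : ℝ, (1 : ℝ) / 6 * (p * q * t + q * u * v + u * p * w + p * u * w + u * q * v + q * p * t)
      = (1 / 3) * (p * q * t + q * u * v + u * p * w) := fun p q u v w t => by ring
  rw [e2]
  linarith

end Vale.Agent.Lib.P154C
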